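import Vale.Agent.P004G.H293.Blk2
import Vale.Agent.P004G.H628.Poly
import Vale.Agent.P004.H293.RA

/-!
# P004G: the random model, decomposition over the blocks
-/

open Finset Real

namespace P004G.H293

variable [Crv]

open P004.H293

open P004.H628 (yk_pos yk_anti)
open P004G.H628 (mem_Ik Ik_disj)

lemma Mk_eq (L K : ℝ) (k : ℕ) (ω : ℕ → ℝ) :
    Mk L K k (P004.H628.ffx ω) = MM (Ik L k) (lk k) (K / L) ω := by
  unfold Mk MM Ak
  rfl

/-- the good primes below `N` -/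
def QN (N : ℕ) : Finset ℕ := N.primesBelow.filter (fun p => ¬ p ∣ bd)

lemma mem_QN {N p : ℕ} : p ∈ QN N ↔ p < N ∧ p.Prime ∧ ¬ p ∣ bd := by
  unfold QN
  rw [mem_filter, Nat.mem_primesBelow]
  tauto

lemma three_le {p : ℕ} (hp : p.Prime) (h2 : ¬ p ∣ bd) : 3 ≤ p := by
  have h3 : p ≠ 2 := fun h => h2 (h ▸ two_dvd_bd)
  have := hp.two_le
  omega

lemma LN_eq (N : ℕ) (ω : ℕ → ℝ) (s : ℂ) :
    LN N (P004.H628.ffx ω) s = ∏ p ∈ QN N, Lp p s (ω p) := by
  unfold LN QN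
  rw [Finset.prod_filter]
  refine Finset.prod_congr rfl fun p hp => ?_
  have hpp := Nat.prime_of_mem_primesBelow hp
  by_cases h2 : p ∣ bd
  · simp [h2]
  · rw [if_neg h2, if_pos h2, P004.H628.ffx_prime ω hpp]
    rfl

lemma Ik_prime {L : ℝ} {k p : ℕ} (hp : p ∈ Ik L k) : p.Prime := (mem_Ik.1 hp).2.1

lemma Ik_three {L : ℝ} {k p : ℕ} (hp : p ∈ Ik L k) : 3 ≤ p :=
  three_le (mem_Ik.1 hp).2.1 (mem_Ik.1 hp).2.2.1

lemma Ik_pairwise {L : ℝ} (hL : 0 ≤ L) (J : Finset ℕ) :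
    (J : Set ℕ).PairwiseDisjoint (fun k => Ik L k) := by
  intro k _ l _ hkl
  refine Finset.disjoint_left.2 fun p hp hq => hkl (Ik_disj hL hp hq)

lemma Ik_sub_QN {L : ℝ} (hL : 0 ≤ L) {N : ℕ} (hN : yk L 0 < N) (J : Finset ℕ) :
    J.biUnion (fun k => Ik L k) ⊆ QN N := by
  intro p hp
  obtain ⟨k, _, hk⟩ := mem_biUnion.1 hp
  have hk' := mem_Ik.1 hk
  rw [mem_QN]
  refine ⟨?_, hk'.2.1, hk'.2.2.1⟩
  have h1 : (p : ℝ) < N := (hk'.1.trans (yk_anti hL (Nat.zero_le k))).trans_lt hN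
  exact_mod_cast h1

/-- expectation of a product over blocks and over the remaining primes -/
theorem EE_blocks {L : ℝ} (hL : 0 ≤ L) {N : ℕ} (hN : yk L 0 < N) (J : Finset ℕ)
    (F : ℕ → (ℕ → ℝ) → ℝ) (hF : ∀ k ∈ J, DepOn (Ik L k) (F k)) (G : ℕ → ℝ → ℝ) :
    EE (range N) (fun ω => (∏ k ∈ J, F k ω) *
        ∏ p ∈ QN N \ J.biUnion (fun k => Ik L k), G p (ω p)) =
      (∏ k ∈ J, EE (Ik L k) (F k)) *
        ∏ p ∈ QN N \ J.biUnion (fun k => Ik L k), E1 p (G p) := by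
  set U := J.biUnion (fun k => Ik L k) with hU
  have hsub : U ∪ (QN N \ U) ⊆ range N := by
    rw [Finset.union_sdiff_of_subset (Ik_sub_QN hL hN J)]
    intro p hp
    exact mem_range.2 (mem_QN.1 hp).1
  have h1 : DepOn U (fun ω => ∏ k ∈ J, F k ω) :=
    DepOn.prod J fun k hk => (hF k hk).mono (Finset.subset_biUnion_of_mem _ hk)
  have h2 : DepOn (QN N \ U) (fun ω => ∏ p ∈ QN N \ U, G p (ω p)) := by
    intro ω ω' h
    exact Finset.prod_congr rfl fun p hp => by rw [h p hp]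
  have h3 : DepOn (U ∪ (QN N \ U)) (fun ω => (∏ k ∈ J, F k ω) * ∏ p ∈ QN N \ U, G p (ω p)) :=
    (h1.mono subset_union_left).mul (h2.mono subset_union_right)
  rw [EE_of_depOn hsub h3, EE_union disjoint_sdiff h1 h2, hU,
    EE_biUnion J (fun k => Ik L k) (Ik_pairwise hL J) F hF, EE_prod]

lemma LN_split {L : ℝ} (hL : 0 ≤ L) {N : ℕ} (hN : yk L 0 < N) (J : Finset ℕ) (f : ℕ → ℝ) :
    ∏ p ∈ QN N, f p = (∏ k ∈ J, ∏ p ∈ Ik L k, f p) *
      ∏ p ∈ QN N \ J.biUnion (fun k => Ik L k), f p := by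
  rw [← Finset.prod_biUnion (Ik_pairwise hL J), mul_comm,
    Finset.prod_sdiff (Ik_sub_QN hL hN J)]

lemma lk_ge (k : ℕ) : (k : ℝ) / 2 + 1 ≤ lk k := by
  unfold lk
  exact (Real.add_one_le_exp _).trans (Nat.le_ceil _)

lemma sum_lk (J : Finset ℕ) : ∑ k ∈ J, (1 / 3 : ℝ) ^ lk k ≤ 1 := by
  have h1 : ∀ k, (1 / 3 : ℝ) ^ lk k ≤ (9 / 25) * (3 / 5) ^ k := by
    intro k
    have h2 : k + 2 ≤ 2 * lk k := by
      have := lk_ge k
      have h3 : ((k + 2 : ℕ) : ℝ) ≤ ((2 * lk k : ℕ) : ℝ) := by push_cast; linarith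
      exact_mod_cast h3
    have h3 : ((1 / 3 : ℝ) ^ lk k) ^ 2 ≤ ((9 / 25) * (3 / 5) ^ k) ^ 2 := by
      rw [← pow_mul, mul_comm (lk k) 2]
      calc (1 / 3 : ℝ) ^ (2 * lk k) ≤ (1 / 3) ^ (k + 2) :=
            pow_le_pow_of_le_one (by norm_num) (by norm_num) h2
        _ ≤ (9 / 25 : ℝ) ^ (k + 2) := pow_le_pow_left₀ (by norm_num) (by norm_num) _
        _ = ((9 / 25) * (3 / 5) ^ k) ^ 2 := by
            rw [mul_pow, ← pow_mul, mul_comm k 2, pow_mul, pow_add]; norm_num; ring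
    exact (sq_le_sq₀ (by positivity) (by positivity)).1 h3
  calc ∑ k ∈ J, (1 / 3 : ℝ) ^ lk k ≤ ∑ k ∈ J, (9 / 25 : ℝ) * (3 / 5) ^ k :=
        Finset.sum_le_sum fun k _ => h1 k
    _ = (9 / 25) * ∑ k ∈ J, (3 / 5 : ℝ) ^ k := by rw [Finset.mul_sum]
    _ ≤ (9 / 25) * (1 - 3 / 5)⁻¹ := by
        gcongr
        rw [← tsum_geometric_of_lt_one (by norm_num) (by norm_num)]
        exact Summable.sum_le_tsum _ (fun _ _ => by positivity)
          (summable_geometric_of_lt_one (by norm_num) (by norm_num))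
    _ ≤ 1 := by norm_num

lemma log_yk (L : ℝ) (k : ℕ) : Real.log (yk L k) = L / 8000 * Real.exp (-(k : ℝ)) := by
  unfold yk
  rw [Real.log_exp]

/-- the sum of `1/p` over a block is bounded -/
lemma sum_Ik {L : ℝ} (hL : 0 ≤ L) (k : ℕ) : ∑ p ∈ Ik L k, (1 : ℝ) / p ≤ 40 := by
  rcases lt_or_ge (yk L k) 3 with h | h
  · have : Ik L k = ∅ := by
      rw [Finset.eq_empty_iff_forall_notMem]
      intro p hp
      have h3 : (3 : ℝ) ≤ p := by exact_mod_cast Ik_three hp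
      linarith [(mem_Ik.1 hp).1]
    rw [this]; simp
  · have hy2 : 2 ≤ max 2 (yk L (k + 1)) := le_max_left _ _
    have hle : max 2 (yk L (k + 1)) ≤ yk L k := max_le (by linarith) (yk_anti hL (Nat.le_succ k))
    have h1 := sum_inv_range (S := Ik L k) (fun p hp => Ik_prime hp) hy2 hle (fun p hp => by
      refine max_le ?_ (mem_Ik.1 hp).2.2.2.le
      exact_mod_cast (Ik_prime hp).two_le) (fun p hp => (mem_Ik.1 hp).1)
    have hlog : Real.log (yk L k) ≤ 3 * Real.log (max 2 (yk L (k + 1))) := by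
      have h2 : Real.log (yk L (k + 1)) ≤ Real.log (max 2 (yk L (k + 1))) :=
        Real.log_le_log (yk_pos _ _) (le_max_right _ _)
      have h3 : Real.log (yk L k) = Real.exp 1 * Real.log (yk L (k + 1)) := by
        rw [log_yk, log_yk]
        have : Real.exp (-(k : ℝ)) = Real.exp 1 * Real.exp (-((k + 1 : ℕ) : ℝ)) := by
          rw [← Real.exp_add]; congr 1; push_cast; ring
        rw [this]; ring
      have h4 : 0 ≤ Real.log (yk L (k + 1)) := by rw [log_yk]; positivity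
      have h5 : Real.exp 1 ≤ 3 := by linarith [Real.exp_one_lt_d9]
      calc Real.log (yk L k) = Real.exp 1 * Real.log (yk L (k + 1)) := h3
        _ ≤ 3 * Real.log (yk L (k + 1)) := by gcongr
        _ ≤ _ := by linarith
    have hl0 : 0 < Real.log (max 2 (yk L (k + 1))) := Real.log_pos (by linarith)
    have hly : 0 < Real.log (yk L k) := Real.log_pos (by linarith)
    have h2 : Real.log (Real.log (yk L k) / Real.log (max 2 (yk L (k + 1)))) ≤
        Real.log (yk L k) / Real.log (max 2 (yk L (k + 1))) - 1 :=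
      Real.log_le_sub_one_of_pos (by positivity)
    have h3 : Real.log (yk L k) / Real.log (max 2 (yk L (k + 1))) ≤ 3 := by
      rw [div_le_iff₀ hl0]; exact hlog
    linarith

lemma PP_le (I : Finset ℕ) : PP I ≤ Real.exp (3000000 * ∑ p ∈ I, (1 : ℝ) / p) := by
  unfold PP
  rw [Finset.mul_sum, Real.exp_sum]
  refine Finset.prod_le_prod (fun p _ => by positivity) fun p _ => ?_
  linarith [Real.add_one_le_exp (3000000 * ((1 : ℝ) / p))]

/-- the constant bounding `PP` over a block -/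
noncomputable def CP : ℝ := Real.exp 120000000

lemma one_le_CP : 1 ≤ CP := Real.one_le_exp (by norm_num)

lemma PP_Ik {L : ℝ} (hL : 0 ≤ L) (k : ℕ) : PP (Ik L k) ≤ CP := by
  refine (PP_le _).trans ?_
  unfold CP
  apply Real.exp_le_exp.2
  have := sum_Ik hL k
  linarith

/-- a prime outside the blocks `k₁ ≤ k < ⌈L⌉` is large -/
lemma rest_large {L : ℝ} (hL : 1 ≤ L) {N k₁ p : ℕ}
    (hp : p ∈ QN N \ (Finset.Ico k₁ ⌈L⌉₊).biUnion (fun k => Ik L k)) : yk L k₁ ≤ p := by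
  rw [mem_sdiff, mem_QN] at hp
  obtain ⟨⟨_, hpp, hp2⟩, hno⟩ := hp
  by_contra hcon
  rw [not_le] at hcon
  apply hno
  have h3 : (3 : ℝ) ≤ p := by exact_mod_cast three_le hpp hp2
  -- `y_{⌈L⌉} < 3`
  have hsmall : yk L ⌈L⌉₊ < 3 := by
    have h1 : L / 8000 * Real.exp (-(⌈L⌉₊ : ℝ)) ≤ 1 := by
      have h2 : Real.exp (-(⌈L⌉₊ : ℝ)) ≤ Real.exp (-L) := by
        apply Real.exp_le_exp.2
        linarith [Nat.le_ceil L]
      have h4 : L * Real.exp (-L) ≤ 1 := by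
        rw [Real.exp_neg, mul_inv_le_iff₀ (Real.exp_pos L), one_mul]
        linarith [Real.add_one_le_exp L]
      have h5 : 0 < Real.exp (-L) := Real.exp_pos _
      calc L / 8000 * Real.exp (-(⌈L⌉₊ : ℝ)) ≤ L / 8000 * Real.exp (-L) := by gcongr
        _ ≤ 1 := by nlinarith
    unfold yk
    calc Real.exp (L / 8000 * Real.exp (-(⌈L⌉₊ : ℝ))) ≤ Real.exp 1 := Real.exp_le_exp.2 h1
      _ < 3 := by linarith [Real.exp_one_lt_d9]
  have hk1 : k₁ < ⌈L⌉₊ := by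
    by_contra h
    have := yk_anti (by linarith : 0 ≤ L) (not_lt.1 h)
    linarith
  -- the last `k` with `p ≤ y_k`
  have hex : ∃ k, k₁ ≤ k ∧ yk L (k + 1) < p := ⟨⌈L⌉₊, hk1.le, by
    have := yk_anti (by linarith : 0 ≤ L) (Nat.le_succ ⌈L⌉₊)
    linarith⟩
  classical
  set k := Nat.find hex with hk
  obtain ⟨hk2, hk3⟩ := Nat.find_spec hex
  rw [← hk] at hk2 hk3
  have hk4 : (p : ℝ) ≤ yk L k := by
    rcases eq_or_lt_of_le hk2 with h | h
    · rw [← h]; exact hcon.le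
    · have := Nat.find_min hex (m := k - 1) (by omega)
      rw [not_and, not_lt] at this
      have h5 := this (by omega)
      rwa [Nat.sub_add_cancel (by omega)] at h5
  rw [mem_biUnion]
  refine ⟨k, ?_, mem_Ik.2 ⟨hk4, hpp, hp2, hk3⟩⟩
  rw [mem_Ico]
  refine ⟨hk2, ?_⟩
  by_contra h
  have := yk_anti (by linarith : 0 ≤ L) (not_lt.1 h)
  linarith

end P004G.H293
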