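import Vale.Agent.P004G.H293.R4

/-!
# P004, module R2: second moment of the mollified random Euler product
-/

open Finset Real

namespace P004G.H293

variable [Crv]

open P004.H293

open P004.H628 (yk_pos yk_anti)
open P004G.H628 (mem_Ik Ik_disj)

lemma norm_exp_sub_one {w : ℂ} (hw : w.re ≤ 0) : ‖Complex.exp w - 1‖ ≤ 2 * min 1 ‖w‖ := by
  rcases le_or_gt ‖w‖ 1 with h | h
  · rw [min_eq_right h]
    exact Complex.norm_exp_sub_one_le h
  · rw [min_eq_left h.le]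
    have h1 : ‖Complex.exp w‖ ≤ 1 := by
      rw [Complex.norm_exp]; exact Real.exp_le_one_iff.2 hw
    calc ‖Complex.exp w - 1‖ ≤ ‖Complex.exp w‖ + ‖(1 : ℂ)‖ := norm_sub_le _ _
      _ ≤ 1 + 1 := by rw [norm_one]; linarith
      _ = 2 * 1 := by norm_num

lemma exp_diff {a b : ℂ} (ha : 0 ≤ a.re) (hb : 0 ≤ b.re) :
    ‖Complex.exp (-a) - Complex.exp (-b)‖ ≤ 2 * min 1 ‖a - b‖ := by
  wlog h : b.re ≤ a.re generalizing a b with H
  · have := H hb ha (not_le.1 h).le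
    rwa [norm_sub_rev, norm_sub_rev b a] at this
  · have e : Complex.exp (-a) - Complex.exp (-b) =
        Complex.exp (-b) * (Complex.exp (-(a - b)) - 1) := by
      rw [mul_sub, ← Complex.exp_add]
      congr 1
      · congr 1; ring
      · ring
    rw [e, norm_mul]
    have h1 : ‖Complex.exp (-b)‖ ≤ 1 := by
      rw [Complex.norm_exp]; apply Real.exp_le_one_iff.2; simpa using hb
    have h2 := norm_exp_sub_one (w := -(a - b)) (by simp; exact h)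
    rw [norm_neg] at h2
    calc ‖Complex.exp (-b)‖ * ‖Complex.exp (-(a - b)) - 1‖
        ≤ 1 * (2 * min 1 ‖a - b‖) := by gcongr
      _ = _ := by ring

lemma tt_diff {p : ℕ} (hp : p.Prime) {z : ℂ} {z₀ : ℝ} (hz : 0 ≤ z.re) (hz₀ : 0 ≤ z₀) :
    ‖tt p z - tt p z₀‖ * (p : ℝ) ^ (-(1 / 2) : ℝ) ≤ 2 * (min 1 (‖z - z₀‖ * Real.log p) / p) := by
  have hp0 : (p : ℂ) ≠ 0 := by exact_mod_cast hp.ne_zero
  have hpR : (0 : ℝ) < p := by exact_mod_cast hp.pos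
  have hlog : 0 ≤ Real.log p := Real.log_natCast_nonneg p
  have e1 : ∀ w : ℂ, tt p w = (((p : ℝ) ^ (-(1 / 2) : ℝ) : ℝ) : ℂ) *
      Complex.exp (-(w * (Real.log p : ℂ))) := by
    intro w
    unfold tt
    rw [sub_eq_add_neg, Complex.cpow_add _ _ hp0]
    congr 1
    · rw [Complex.ofReal_cpow hpR.le]
      push_cast
      rfl
    · rw [Complex.cpow_def_of_ne_zero hp0, ← Complex.natCast_log]
      congr 1
      ring
  rw [e1, e1, ← mul_sub, norm_mul, Complex.norm_real, Real.norm_eq_abs,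
    abs_of_pos (Real.rpow_pos_of_pos hpR _)]
  have h1 := exp_diff (a := z * (Real.log p : ℂ)) (b := (z₀ : ℂ) * (Real.log p : ℂ))
    (by simp only [Complex.re_mul_ofReal]; positivity)
    (by simp only [Complex.re_mul_ofReal, Complex.ofReal_re]; positivity)
  rw [← sub_mul, norm_mul, Complex.norm_real, Real.norm_eq_abs, abs_of_nonneg hlog] at h1
  calc (p : ℝ) ^ (-(1 / 2) : ℝ) * ‖Complex.exp (-(z * (Real.log p : ℂ))) -
        Complex.exp (-((z₀ : ℂ) * (Real.log p : ℂ)))‖ * (p : ℝ) ^ (-(1 / 2) : ℝ)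
      = ((p : ℝ) ^ (-(1 / 2) : ℝ)) ^ 2 * ‖Complex.exp (-(z * (Real.log p : ℂ))) -
        Complex.exp (-((z₀ : ℂ) * (Real.log p : ℂ)))‖ := by ring
    _ ≤ (1 / p) * (2 * min 1 (‖z - z₀‖ * Real.log p)) := by
        rw [inv_sqrt_sq hp.pos]
        gcongr
    _ = _ := by ring

lemma fin_num (A₁ A₂ : ℕ) {K x : ℝ} (j : ℕ) (hK : 1 ≤ K) (hx : 0 ≤ x) :
    (2 * K * (1 + x)) ^ A₁ * (8001 * 8 ^ j) ^ A₂ ≤
      (2 ^ A₁ * 8001 ^ A₂) * (K * 2 ^ j) ^ (A₁ + 3 * A₂) * (1 + x) ^ (A₁ + 3 * A₂) := by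
  have h2j : (1 : ℝ) ≤ 2 ^ j := one_le_pow₀ (by norm_num)
  have h1 : K ^ A₁ ≤ (K * 2 ^ j) ^ A₁ := by
    gcongr
    nlinarith
  have h2 : ((8 : ℝ) ^ j) ^ A₂ ≤ (K * 2 ^ j) ^ (3 * A₂) := by
    have : ((8 : ℝ) ^ j) ^ A₂ = (2 ^ j) ^ (3 * A₂) := by
      rw [← pow_mul, ← pow_mul, show (8 : ℝ) = 2 ^ 3 by norm_num, ← pow_mul]
      congr 1
      ring
    rw [this]
    gcongr
    nlinarith
  have h3 : (1 + x) ^ A₁ ≤ (1 + x) ^ (A₁ + 3 * A₂) :=
    pow_le_pow_right₀ (by linarith) (by omega)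
  calc (2 * K * (1 + x)) ^ A₁ * (8001 * 8 ^ j) ^ A₂
      = (2 ^ A₁ * 8001 ^ A₂) * (K ^ A₁ * (8 ^ j) ^ A₂) * (1 + x) ^ A₁ := by
        rw [mul_pow, mul_pow, mul_pow]; ring
    _ ≤ (2 ^ A₁ * 8001 ^ A₂) * ((K * 2 ^ j) ^ A₁ * (K * 2 ^ j) ^ (3 * A₂)) *
          (1 + x) ^ (A₁ + 3 * A₂) := by gcongr
    _ = _ := by rw [pow_add (K * 2 ^ j)]

/-- union of the blocks `2j ≤ k < ⌈L⌉` -/
noncomputable def UU (L : ℝ) (j : ℕ) : Finset ℕ :=
  (Ico (2 * j) ⌈L⌉₊).biUnion (fun k => Ik L k)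

lemma R2_rest (hc : StCoef) {L : ℝ} {N : ℕ} {U : Finset ℕ} {z : ℂ} (hz : 0 ≤ z.re) :
    0 ≤ ∏ p ∈ QN N \ U, E1 p (fun x => ‖Lp p (1 + z) x‖ ^ 2) ∧
    ∏ p ∈ QN N \ U, E1 p (fun x => ‖Lp p (1 + z) x‖ ^ 2) ≤
      Real.exp (3000 * ∑ p ∈ QN N \ U, ‖tt p z‖ ^ 2) := by
  have h0 : ∀ p ∈ QN N \ U, 0 ≤ E1 p (fun x => ‖Lp p (1 + z) x‖ ^ 2) := by
    intro p hp
    have hp' := (mem_QN.1 (mem_sdiff.1 hp).1).2.1
    have := E1_mono hp'.one_lt.le (G := fun _ => 0)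
      (H := fun x => ‖Lp p (1 + z) x‖ ^ 2) (fun x _ => by positivity)
    rwa [E1_const] at this
  refine ⟨Finset.prod_nonneg h0, ?_⟩
  rw [Finset.mul_sum, Real.exp_sum]
  refine Finset.prod_le_prod h0 fun p hp => ?_
  have hp' := (mem_QN.1 (mem_sdiff.1 hp).1).2
  refine (E1_Lp2 hc hp'.1 (three_le hp'.1 hp'.2) hz).trans ?_
  linarith [Real.add_one_le_exp (3000 * ‖tt p z‖ ^ 2)]

lemma R2_blocks (hc : StCoef) {L : ℝ} (hL0 : 0 < L) (J : Finset ℕ) {z₀ : ℝ} (hz₀ : 0 ≤ z₀) {z : ℂ}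
    (hz : 0 ≤ z.re) :
    ∏ k ∈ J, EE (Ik L k) (fun ω => MM (Ik L k) (lk k) z₀ ω ^ 2 *
        ∏ p ∈ Ik L k, ‖Lp p (1 + z) (ω p)‖ ^ 2) ≤
      Real.exp (3 * CP) * Real.exp (∑ p ∈ J.biUnion (fun k => Ik L k),
        6000 * (‖tt p z - tt p z₀‖ * (p : ℝ) ^ (-(1 / 2) : ℝ))) := by
  have hS : ∀ k, ∀ p ∈ Ik L k, 1 ≤ p := fun k p hp => (Ik_prime hp).one_lt.le
  calc ∏ k ∈ J, EE (Ik L k) (fun ω => MM (Ik L k) (lk k) z₀ ω ^ 2 *
        ∏ p ∈ Ik L k, ‖Lp p (1 + z) (ω p)‖ ^ 2)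
      ≤ ∏ k ∈ J, (Real.exp (3 * CP * (1 / 3) ^ lk k) *
        Real.exp (∑ p ∈ Ik L k, 6000 * (‖tt p z - tt p z₀‖ * (p : ℝ) ^ (-(1 / 2) : ℝ)))) := by
        refine Finset.prod_le_prod (fun k _ => ?_) fun k _ => ?_
        · refine EE_nonneg (hS k) fun ω _ => ?_
          have : 0 ≤ ∏ p ∈ Ik L k, ‖Lp p (1 + z) (ω p)‖ ^ 2 :=
            Finset.prod_nonneg fun _ _ => by positivity
          positivity
        · refine (EE_ML (fun p hp => Ik_prime hp) (fun p hp => Ik_three hp) hc (lk k) hz₀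
            hz).trans ?_
          rw [← Real.exp_add]
          apply Real.exp_le_exp.2
          have := PP_Ik hL0.le k
          gcongr
    _ = Real.exp (3 * CP * ∑ k ∈ J, (1 / 3) ^ lk k) *
        Real.exp (∑ p ∈ J.biUnion (fun k => Ik L k),
          6000 * (‖tt p z - tt p z₀‖ * (p : ℝ) ^ (-(1 / 2) : ℝ))) := by
        rw [Finset.prod_mul_distrib, ← Real.exp_sum, ← Real.exp_sum, ← Finset.mul_sum,
          Finset.sum_biUnion (Ik_pairwise hL0.le J)]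
    _ ≤ Real.exp (3 * CP * 1) * Real.exp (∑ p ∈ J.biUnion (fun k => Ik L k),
          6000 * (‖tt p z - tt p z₀‖ * (p : ℝ) ^ (-(1 / 2) : ℝ))) := by
        have := sum_lk J
        have := one_le_CP
        gcongr
    _ = _ := by rw [mul_one]

lemma R2_main (hc : StCoef) {L K : ℝ} {j N : ℕ} (hL0 : 0 < L) (hz₀ : 0 ≤ K / L)
    (hN : yk L 0 < N) {z : ℂ} (hz : 0 ≤ z.re) :
    EN N (fun X => (Mf L K (2 * j) ⌈L⌉₊ X) ^ 2 * ‖LN N X (1 + z)‖ ^ 2) ≤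
      Real.exp (3 * CP) * Real.exp (∑ p ∈ UU L j,
        6000 * (‖tt p z - tt p ((K / L : ℝ) : ℂ)‖ * (p : ℝ) ^ (-(1 / 2) : ℝ))) *
        Real.exp (3000 * ∑ p ∈ QN N \ UU L j, ‖tt p z‖ ^ 2) := by
  rw [P004.H628.EN_eq]
  set J := Ico (2 * j) ⌈L⌉₊ with hJ
  have hU : UU L j = J.biUnion (fun k => Ik L k) := rfl
  rw [hU]
  have h1 := EE_blocks hL0.le hN J
    (fun k ω => MM (Ik L k) (lk k) (K / L) ω ^ 2 * ∏ p ∈ Ik L k, ‖Lp p (1 + z) (ω p)‖ ^ 2)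
    (fun k _ => by
      have h2 := MM2_depOn (L := L) k (lk k) (K / L)
      intro ω ω' h
      have h3 := h2 ω ω' h
      simp only at h3 ⊢
      rw [h3]
      congr 1
      exact Finset.prod_congr rfl fun p hp => by rw [h p hp])
    (fun p x => ‖Lp p (1 + z) x‖ ^ 2)
  have h2 : (fun ω => (Mf L K (2 * j) ⌈L⌉₊ (P004.H628.ffx ω)) ^ 2 *
      ‖LN N (P004.H628.ffx ω) (1 + z)‖ ^ 2) =
      fun ω => (∏ k ∈ J, (MM (Ik L k) (lk k) (K / L) ω ^ 2 *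
        ∏ p ∈ Ik L k, ‖Lp p (1 + z) (ω p)‖ ^ 2)) *
        ∏ p ∈ QN N \ J.biUnion (fun k => Ik L k), ‖Lp p (1 + z) (ω p)‖ ^ 2 := by
    funext ω
    rw [Mf_eq, LN_eq, norm_prod, ← Finset.prod_pow, ← Finset.prod_pow,
      LN_split hL0.le hN J (fun p => ‖Lp p (1 + z) (ω p)‖ ^ 2), Finset.prod_mul_distrib]
    ring
  rw [h2, h1]
  obtain ⟨hB0, hB⟩ := R2_rest hc (L := L) (N := N) (U := J.biUnion (fun k => Ik L k)) hz
  exact mul_le_mul (R2_blocks hc hL0 J hz₀ hz) hB hB0 (by positivity)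

lemma log_yk_le {L : ℝ} (hL0 : 0 < L) (j : ℕ) :
    Real.log (yk L (2 * j)) * 8000 ≤ L / 2 ^ j := by
  have h2j : (0 : ℝ) < 2 ^ j := by positivity
  rw [log_yk]
  have h1 : Real.exp (-((2 * j : ℕ) : ℝ)) ≤ 1 / 2 ^ j := by
    have h3 : (2 : ℝ) ≤ Real.exp 2 := by
      have := Real.add_one_le_exp (2 : ℝ); linarith
    have h2 : (2 : ℝ) ^ j ≤ Real.exp ((2 * j : ℕ) : ℝ) := by
      calc (2 : ℝ) ^ j ≤ (Real.exp 2) ^ j := by gcongr
        _ = Real.exp ((2 * j : ℕ) : ℝ) := by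
            rw [← Real.exp_nat_mul]; congr 1; push_cast; ring
    rw [Real.exp_neg, one_div]
    exact inv_anti₀ h2j h2
  calc L / 8000 * Real.exp (-((2 * j : ℕ) : ℝ)) * 8000 = L * Real.exp (-((2 * j : ℕ) : ℝ)) := by
        ring
    _ ≤ L * (1 / 2 ^ j) := by gcongr
    _ = _ := by ring

lemma R2_W {L K τ : ℝ} {j : ℕ} (hL0 : 0 < L) (hK : 1 ≤ K) {z : ℂ} (hz : 0 ≤ z.re)
    (hT : ‖z - ((K / L : ℝ) : ℂ)‖ ≤ 10 * K / L + |τ|) :
    ∑ p ∈ UU L j, 6000 * (‖tt p z - tt p ((K / L : ℝ) : ℂ)‖ * (p : ℝ) ^ (-(1 / 2) : ℝ)) ≤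
      384000 * (1 + Real.log (2 * K * (1 + |τ| * L / 2 ^ j))) := by
  have hz₀0 : 0 ≤ K / L := by positivity
  set x : ℝ := |τ| * L / 2 ^ j with hx
  have hx0 : 0 ≤ x := by positivity
  have h2j : (0 : ℝ) < 2 ^ j := by positivity
  have hlogy := log_yk_le hL0 j
  have hlogy0 : 0 ≤ Real.log (yk L (2 * j)) := by rw [log_yk]; positivity
  have hlog0 : 0 ≤ Real.log (2 * K * (1 + x)) := by
    apply Real.log_nonneg; nlinarith
  rcases lt_or_ge (yk L (2 * j)) 2 with h | h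
  · have : UU L j = ∅ := by
      rw [Finset.eq_empty_iff_forall_notMem]
      intro p hp
      obtain ⟨k, hk, hkp⟩ := mem_biUnion.1 hp
      have h3 : (2 : ℝ) ≤ p := by exact_mod_cast (Ik_prime hkp).two_le
      have h4 := (mem_Ik.1 hkp).1.trans (yk_anti hL0.le (mem_Ico.1 hk).1)
      linarith
    rw [this, Finset.sum_empty]
    positivity
  · have hUp : ∀ p ∈ UU L j, p.Prime := by
      intro p hp
      obtain ⟨k, _, hk⟩ := mem_biUnion.1 hp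
      exact Ik_prime hk
    have hUy : ∀ p ∈ UU L j, (p : ℝ) ≤ yk L (2 * j) := by
      intro p hp
      obtain ⟨k, hk, hkp⟩ := mem_biUnion.1 hp
      exact (mem_Ik.1 hkp).1.trans (yk_anti hL0.le (mem_Ico.1 hk).1)
    set T : ℝ := ‖z - ((K / L : ℝ) : ℂ)‖ with hTdef
    have hT0 : 0 ≤ T := norm_nonneg _
    have h1 := sum_min_log hUp (t := T) hT0 h hUy
    have h2 : ∑ p ∈ UU L j, 6000 * (‖tt p z - tt p ((K / L : ℝ) : ℂ)‖ *
        (p : ℝ) ^ (-(1 / 2) : ℝ)) ≤ 12000 * ∑ p ∈ UU L j, min 1 (T * Real.log p) / p := by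
      rw [Finset.mul_sum]
      refine Finset.sum_le_sum fun p hp => ?_
      have := tt_diff (hUp p hp) (z := z) (z₀ := K / L) hz hz₀0
      rw [← hTdef] at this
      linarith
    have h3 : 1 + T * Real.log (yk L (2 * j)) ≤ 2 * K * (1 + x) := by
      have h4 : T * Real.log (yk L (2 * j)) ≤
          (10 * K / L + |τ|) * (L / 2 ^ j / 8000) := by
        have : Real.log (yk L (2 * j)) ≤ L / 2 ^ j / 8000 := by
          rw [le_div_iff₀ (by norm_num)]; exact hlogy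
        gcongr
      have h5 : (10 * K / L + |τ|) * (L / 2 ^ j / 8000) ≤ K + x := by
        have e : (10 * K / L + |τ|) * (L / 2 ^ j / 8000) =
            (10 * K / 2 ^ j) / 8000 + x / 8000 := by
          rw [hx]; field_simp
        rw [e]
        have h6 : 10 * K / 2 ^ j ≤ 10 * K := div_le_self (by linarith) (one_le_pow₀ (by norm_num))
        linarith
      nlinarith
    have h4 : Real.log (1 + T * Real.log (yk L (2 * j))) ≤
        Real.log (2 * K * (1 + x)) := Real.log_le_log (by positivity) h3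
    linarith

lemma R2_V {L : ℝ} (hL : 1 ≤ L) {j N : ℕ} {z : ℂ} (hz : 1 / (2 * L) ≤ z.re) :
    ∑ p ∈ QN N \ UU L j, ‖tt p z‖ ^ 2 ≤ 264 * (1 + Real.log (8001 * 8 ^ j)) := by
  have hL0 : 0 < L := by linarith
  set y : ℝ := max 2 (yk L (2 * j)) with hy
  have hy2 : 2 ≤ y := le_max_left _ _
  have hly0 : 0 < Real.log y := Real.log_pos (by linarith)
  have hly : L / 8000 * Real.exp (-((2 * j : ℕ) : ℝ)) ≤ Real.log y := by
    rw [← log_yk]
    exact Real.log_le_log (yk_pos _ _) (le_max_right _ _)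
  have hpr : ∀ p ∈ QN N \ UU L j, p.Prime := fun p hp => (mem_QN.1 (mem_sdiff.1 hp).1).2.1
  have h1 := sum_rpow_tail' hpr hy2 (σ := 1 / L) (by positivity)
    (by rw [div_le_one hL0]; exact hL) (fun p hp => by
      refine max_le ?_ (rest_large hL hp)
      exact_mod_cast (hpr p hp).two_le)
  have h2 : ∑ p ∈ QN N \ UU L j, ‖tt p z‖ ^ 2 ≤ ∑ p ∈ QN N \ UU L j, (p : ℝ) ^ (-1 - 1 / L) := by
    refine Finset.sum_le_sum fun p hp => ?_
    rw [norm_tt_sq (hpr p hp).pos]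
    apply Real.rpow_le_rpow_of_exponent_le (by exact_mod_cast (hpr p hp).one_lt.le)
    have : 1 / L = 2 * (1 / (2 * L)) := by field_simp
    rw [this]
    linarith
  refine h2.trans (h1.trans ?_)
  have h3 : Real.exp (-(1 / L) * Real.log y) ≤ 1 := by
    apply Real.exp_le_one_iff.2
    have : 0 ≤ 1 / L * Real.log y := by positivity
    linarith
  have h4 : 1 + 1 / (1 / L * Real.log y) ≤ 8001 * 8 ^ j := by
    have h5 : 1 / (1 / L * Real.log y) = L / Real.log y := by field_simp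
    have h6 : L / Real.log y ≤ 8000 * Real.exp ((2 * j : ℕ) : ℝ) := by
      rw [div_le_iff₀ hly0]
      calc L = 8000 * Real.exp ((2 * j : ℕ) : ℝ) *
            (L / 8000 * Real.exp (-((2 * j : ℕ) : ℝ))) := by
            rw [Real.exp_neg]; field_simp
        _ ≤ _ := by gcongr
    have h7 : Real.exp ((2 * j : ℕ) : ℝ) ≤ 8 ^ j := by
      have : Real.exp ((2 * j : ℕ) : ℝ) = (Real.exp 2) ^ j := by
        rw [← Real.exp_nat_mul]; congr 1; push_cast; ring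
      rw [this]
      have h8 : Real.exp 2 ≤ 8 := by
        have : Real.exp 2 = Real.exp 1 * Real.exp 1 := by rw [← Real.exp_add]; norm_num
        rw [this]
        nlinarith [Real.exp_one_lt_d9, Real.exp_pos 1]
      gcongr
    have h9 : (1 : ℝ) ≤ 8 ^ j := one_le_pow₀ (by norm_num)
    rw [h5]
    linarith
  have h5 : Real.log (1 + 1 / (1 / L * Real.log y)) ≤ Real.log (8001 * 8 ^ j) :=
    Real.log_le_log (by positivity) h4
  have h6 : 0 ≤ Real.log (1 + 1 / (1 / L * Real.log y)) := by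
    apply Real.log_nonneg
    have : 0 ≤ 1 / (1 / L * Real.log y) := by positivity
    linarith
  calc 264 * Real.exp (-(1 / L) * Real.log y) * (1 + Real.log (1 + 1 / (1 / L * Real.log y)))
      ≤ 264 * 1 * (1 + Real.log (8001 * 8 ^ j)) := by gcongr
    _ = _ := by ring

lemma exp_nat_log (A : ℕ) {t : ℝ} (ht : 0 < t) :
    Real.exp (A * (1 + Real.log t)) = Real.exp A * t ^ A := by
  rw [mul_add, mul_one, Real.exp_add, mul_comm (A : ℝ) (Real.log t), Real.exp_mul,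
    Real.exp_log ht, Real.rpow_natCast]

theorem pfR2 (hc : StCoef) : StR2 := by
  obtain ⟨A₁, hA₁⟩ : ∃ A : ℕ, (A : ℝ) = 384000 := ⟨384000, by norm_num⟩
  obtain ⟨A₂, hA₂⟩ : ∃ A : ℕ, (A : ℝ) = 792000 := ⟨792000, by norm_num⟩
  refine ⟨max 1 (Real.exp (3 * CP) * Real.exp A₁ * Real.exp A₂ *
    (2 ^ A₁ * 8001 ^ A₂)), le_max_left _ _, A₁ + 3 * A₂,
    fun L K σ τ j N hL hK hKL hσ hσ' hN => ?_⟩
  have hL0 : 0 < L := by linarith
  have hσ0 : 0 < σ := lt_of_lt_of_le (by positivity) hσ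
  obtain ⟨z, hz⟩ : ∃ z : ℂ, z = σ + τ * Complex.I := ⟨_, rfl⟩
  have hzre : z.re = σ := by simp [hz]
  have hs : (1 : ℂ) + σ + τ * Complex.I = 1 + z := by rw [hz]; ring
  have hT : ‖z - ((K / L : ℝ) : ℂ)‖ ≤ 10 * K / L + |τ| := by
    have : z - ((K / L : ℝ) : ℂ) = ((σ - K / L : ℝ) : ℂ) + (τ : ℂ) * Complex.I := by
      rw [hz]; push_cast; ring
    rw [this]
    refine (norm_add_le _ _).trans ?_
    rw [Complex.norm_real, norm_mul, Complex.norm_I, mul_one, Complex.norm_real]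
    simp only [Real.norm_eq_abs]
    gcongr
    rw [abs_le]
    constructor
    · have : K / L ≤ 10 * K / L := by gcongr; linarith
      linarith
    · have : 0 ≤ K / L := by positivity
      linarith
  have hmain := R2_main hc (j := j) (K := K) hL0 (by positivity) hN (z := z)
    (by rw [hzre]; exact hσ0.le)
  have hWle := R2_W (j := j) (τ := τ) hL0 hK (z := z) (by rw [hzre]; exact hσ0.le) hT
  have hVle := R2_V hL (j := j) (N := N) (z := z) (by rw [hzre]; exact hσ)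
  set x : ℝ := |τ| * L / 2 ^ j with hx
  have hx0 : 0 ≤ x := by positivity
  rw [hs]
  have e1 := exp_nat_log A₁ (t := 2 * K * (1 + x)) (by positivity)
  have e2 := exp_nat_log A₂ (t := 8001 * 8 ^ j) (by positivity)
  have hfin := fin_num A₁ A₂ j hK hx0
  refine hmain.trans ?_
  have a1 := Real.exp_le_exp.2 (hWle.trans_eq (by rw [← hA₁]))
  have a2 : Real.exp (3000 * ∑ p ∈ QN N \ UU L j, ‖tt p z‖ ^ 2) ≤
      Real.exp (A₂ * (1 + Real.log (8001 * 8 ^ j))) := by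
    apply Real.exp_le_exp.2
    rw [hA₂]; linarith
  rw [e1] at a1
  rw [e2] at a2
  have hCP0 : 0 < Real.exp (3 * CP) := Real.exp_pos _
  have hE1 : 0 < Real.exp (A₁ : ℝ) := Real.exp_pos _
  have hE2 : 0 < Real.exp (A₂ : ℝ) := Real.exp_pos _
  generalize Real.exp (3 * CP) = c₁ at *
  generalize Real.exp (A₁ : ℝ) = c₂ at *
  generalize Real.exp (A₂ : ℝ) = c₃ at *
  have hR0 : 0 ≤ (K * 2 ^ j) ^ (A₁ + 3 * A₂) * (1 + x) ^ (A₁ + 3 * A₂) := by positivity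
  calc _ ≤ c₁ * (c₂ * (2 * K * (1 + x)) ^ A₁) * (c₃ * (8001 * 8 ^ j) ^ A₂) := by
        refine mul_le_mul (mul_le_mul_of_nonneg_left a1 hCP0.le) a2 (Real.exp_pos _).le
          (by positivity)
    _ = (c₁ * c₂ * c₃) * ((2 * K * (1 + x)) ^ A₁ * (8001 * 8 ^ j) ^ A₂) := by ring
    _ ≤ (c₁ * c₂ * c₃) * ((2 ^ A₁ * 8001 ^ A₂) * (K * 2 ^ j) ^ (A₁ + 3 * A₂) *
          (1 + x) ^ (A₁ + 3 * A₂)) := mul_le_mul_of_nonneg_left hfin (by positivity)
    _ = (c₁ * c₂ * c₃ * (2 ^ A₁ * 8001 ^ A₂)) * ((K * 2 ^ j) ^ (A₁ + 3 * A₂) *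
          (1 + x) ^ (A₁ + 3 * A₂)) := by ring
    _ ≤ max 1 (c₁ * c₂ * c₃ * (2 ^ A₁ * 8001 ^ A₂)) * ((K * 2 ^ j) ^ (A₁ + 3 * A₂) *
          (1 + x) ^ (A₁ + 3 * A₂)) := mul_le_mul_of_nonneg_right (le_max_right _ _) hR0
    _ = _ := by ring

end P004G.H293
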