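import Vale.Agent.P004G.H293.R2
import Vale.Agent.P004.H128.R3a

/-!
# P004, module R3: mollification at the shift `K / L`
-/

open Finset Real

namespace P004G.H293

variable [Crv]

open P004.H293

open P004.H628 (yk_pos yk_anti)
open P004G.H628 (mem_Ik Ik_disj)

/-- the size of `p^{-1/2-z₀}` -/
lemma yy_bound {p : ℕ} (hp3 : 3 ≤ p) {z₀ : ℝ} (hz₀ : 0 ≤ z₀) :
    0 < (p : ℝ) ^ (-(1 / 2) - z₀) ∧ (p : ℝ) ^ (-(1 / 2) - z₀) ≤ 3 / 5 := by
  have hp0 : (0 : ℝ) < p := by exact_mod_cast (by omega : 0 < p)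
  refine ⟨Real.rpow_pos_of_pos hp0 _, ?_⟩
  have := norm_tt_le hp3 (z := (z₀ : ℂ)) (by simpa using hz₀)
  rw [norm_tt (by omega)] at this
  simpa using this

lemma Np_pos (hc : StCoef) {p : ℕ} (hp : p.Prime) (hp3 : 3 ≤ p) {z₀ : ℝ} (hz₀ : 0 ≤ z₀) {x : ℝ}
    (hx : x = 0 ∨ x = 1 ∨ x = -1) : 0 < Np p z₀ x := by
  have hl := abs_lam_le hc hp
  obtain ⟨hy0, hy⟩ := yy_bound hp3 hz₀
  rw [Np_eq hp.pos]
  set y := (p : ℝ) ^ (-(1 / 2) - z₀)
  have h1 := (abs_le.1 hl).1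
  have h2 := (abs_le.1 hl).2
  rcases hx with rfl | rfl | rfl
  · simp
  · have : 0 < (1 - y) ^ 2 := by
      have : 0 < 1 - y := by linarith
      positivity
    nlinarith
  · have : 0 < (1 - y) ^ 2 := by
      have : 0 < 1 - y := by linarith
      positivity
    nlinarith

lemma Lp_real {p : ℕ} (hp : 0 < p) (z₀ x : ℝ) :
    Lp p (1 + (z₀ : ℂ)) x = (((Np p z₀ x)⁻¹ : ℝ) : ℂ) := by
  rw [Lp_eq hp, Np_eq hp, tt_ofReal]
  push_cast
  rfl

lemma Lp_norm_sq {p : ℕ} (hp : 0 < p) (z₀ x : ℝ) :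
    ‖Lp p (1 + (z₀ : ℂ)) x‖ ^ 2 = ((Np p z₀ x)⁻¹) ^ 2 := by
  rw [Lp_real hp, Complex.norm_real, Real.norm_eq_abs, sq_abs]

/-- lower bound for the mean of an Euler factor -/
lemma E1_Lr_ge (hc : StCoef) {p : ℕ} (hp : p.Prime) (hp3 : 3 ≤ p) {z₀ : ℝ} (hz₀ : 0 ≤ z₀) :
    1 - ((p : ℝ) ^ (-(1 / 2) - z₀)) ^ 2 ≤ E1 p (fun x => (Np p z₀ x)⁻¹) := by
  have h1 := Np_pos hc hp hp3 hz₀ (x := 1) (by simp)
  have h2 := Np_pos hc hp hp3 hz₀ (x := -1) (by simp)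
  obtain ⟨hy0, hy⟩ := yy_bound hp3 hz₀
  have e0 : Np p z₀ 0 = 1 := by rw [Np_eq hp.pos]; ring
  have esum : Np p z₀ 1 + Np p z₀ (-1) = 2 * (1 + ((p : ℝ) ^ (-(1 / 2) - z₀)) ^ 2) := by
    rw [Np_eq hp.pos, Np_eq hp.pos]; ring
  set y := (p : ℝ) ^ (-(1 / 2) - z₀)
  unfold E1
  beta_reduce
  rw [e0]
  set a := Np p z₀ 1
  set b := Np p z₀ (-1)
  have hab : 2 * (1 - y ^ 2) ≤ a⁻¹ + b⁻¹ := by
    have h3 : 4 / (a + b) ≤ a⁻¹ + b⁻¹ := by
      rw [div_le_iff₀ (by positivity)]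
      have : (a⁻¹ + b⁻¹) * (a + b) = 2 + (a / b + b / a) := by field_simp; ring
      rw [this]
      have h4 : 2 ≤ a / b + b / a := by
        have : a / b + b / a = (a ^ 2 + b ^ 2) / (a * b) := by field_simp
        rw [this, le_div_iff₀ (by positivity)]
        nlinarith [sq_nonneg (a - b)]
      linarith
    refine le_trans ?_ h3
    rw [esum, le_div_iff₀ (by positivity)]
    nlinarith [sq_nonneg (y ^ 2)]
  have hp' : (1 : ℝ) ≤ p := by exact_mod_cast hp.one_lt.le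
  have h1p : (1 : ℝ) / p ≤ 1 := by rw [div_le_one (by linarith)]; exact hp'
  have h0p : (0 : ℝ) ≤ 1 / p := by positivity
  set q := 1 / (p : ℝ)
  have hq : 0 ≤ (1 - q) / 2 := by linarith
  calc 1 - y ^ 2 ≤ q * 1 + (1 - q) / 2 * (2 * (1 - y ^ 2)) := by nlinarith [sq_nonneg y]
    _ ≤ q * 1⁻¹ + (1 - q) / 2 * (a⁻¹ + b⁻¹) := by rw [inv_one]; gcongr

lemma one_sub_sum_le {S : Finset ℕ} {a b : ℕ → ℝ} (ha0 : ∀ p ∈ S, 0 ≤ a p) (ha1 : ∀ p ∈ S, a p ≤ 1)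
    (hb : ∀ p ∈ S, 1 - a p ≤ b p) : 1 - ∑ p ∈ S, a p ≤ ∏ p ∈ S, b p := by
  classical
  have h1 : 1 - ∑ p ∈ S, a p ≤ ∏ p ∈ S, (1 - a p) ∧ ∏ p ∈ S, (1 - a p) ≤ 1 ∧
      0 ≤ ∏ p ∈ S, (1 - a p) := by
    induction S using Finset.induction_on with
    | empty => simp
    | insert p S hp ih =>
      obtain ⟨i1, i2, i3⟩ := ih (fun q hq => ha0 q (mem_insert_of_mem hq))
        (fun q hq => ha1 q (mem_insert_of_mem hq)) (fun q hq => hb q (mem_insert_of_mem hq))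
      have h0 := ha0 p (mem_insert_self _ _)
      have h1 := ha1 p (mem_insert_self _ _)
      rw [Finset.sum_insert hp, Finset.prod_insert hp]
      refine ⟨by nlinarith, by nlinarith, mul_nonneg (by linarith) i3⟩
  exact h1.1.trans (Finset.prod_le_prod (fun p hp => by linarith [ha1 p hp]) hb)

/-- one block -/
lemma block_sub_one (hc : StCoef) {L : ℝ} (hL : 0 ≤ L) (k : ℕ) {z₀ η : ℝ} (hz₀ : 0 ≤ z₀)
    (hη0 : 0 < η) (hη1 : η ≤ 1) (hη : ∀ p ∈ Ik L k, (p : ℝ) ^ (-z₀) ≤ η) (l : ℕ) :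
    EE (Ik L k) (fun ω => (MM (Ik L k) l z₀ ω * ∏ p ∈ Ik L k, (Np p z₀ (ω p))⁻¹ - 1) ^ 2) ≤
      (√CP * (η / 3) ^ l) ^ 2 := by
  have h1 : EE (Ik L k) (fun ω => (MM (Ik L k) l z₀ ω *
      ∏ p ∈ Ik L k, (Np p z₀ (ω p))⁻¹ - 1) ^ 2) =
      EE (Ik L k) (fun ω => RR (Ik L k) l z₀ ω ^ 2 *
        ∏ p ∈ Ik L k, ‖Lp p (1 + (z₀ : ℂ)) (ω p)‖ ^ 2) := by
    refine EE_congr fun ω hω => ?_
    have h2 := MM_add_RR (I := Ik L k) (fun p hp => Ik_prime hp) l z₀ ω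
    have h3 : (∏ p ∈ Ik L k, Np p z₀ (ω p)) * ∏ p ∈ Ik L k, (Np p z₀ (ω p))⁻¹ = 1 := by
      rw [← Finset.prod_mul_distrib]
      refine Finset.prod_eq_one fun p hp => ?_
      exact mul_inv_cancel₀ (Np_pos hc (Ik_prime hp) (Ik_three hp) hz₀ (hω.1 p)).ne'
    have h4 : ∏ p ∈ Ik L k, ‖Lp p (1 + (z₀ : ℂ)) (ω p)‖ ^ 2 =
        (∏ p ∈ Ik L k, (Np p z₀ (ω p))⁻¹) ^ 2 := by
      rw [← Finset.prod_pow]
      exact Finset.prod_congr rfl fun p hp => Lp_norm_sq (Ik_prime hp).pos _ _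
    rw [h4]
    rw [← h2] at h3
    have h5 : MM (Ik L k) l z₀ ω * ∏ p ∈ Ik L k, (Np p z₀ (ω p))⁻¹ - 1 =
        -(RR (Ik L k) l z₀ ω * ∏ p ∈ Ik L k, (Np p z₀ (ω p))⁻¹) := by
      rw [add_mul] at h3
      linarith
    rw [h5]
    ring
  rw [h1]
  refine (EE_RL (fun p hp => Ik_prime hp) (fun p hp => Ik_three hp) hc l hη0 hη1 hη
    (z := (z₀ : ℂ)) (by simpa using hz₀)).trans ?_
  rw [mul_pow, Real.sq_sqrt (by linarith [one_le_CP]), ← pow_mul, mul_comm l 2, mul_comm CP]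
  have := PP_Ik hL k
  gcongr

/-- the remaining primes -/
lemma rest_sub_one (hc : StCoef) {S : Finset ℕ} (hS : ∀ p ∈ S, p.Prime ∧ 3 ≤ p) {z₀ T : ℝ}
    (hz₀ : 0 ≤ z₀) (hT : ∑ p ∈ S, (p : ℝ) ^ (-1 - 2 * z₀) ≤ T) :
    EE S (fun ω => (∏ p ∈ S, (Np p z₀ (ω p))⁻¹ - 1) ^ 2) ≤ Real.exp (3000 * T) - 1 + 2 * T := by
  have hsq : ∀ p ∈ S, ((p : ℝ) ^ (-(1 / 2) - z₀)) ^ 2 = (p : ℝ) ^ (-1 - 2 * z₀) := by
    intro p hp
    have := norm_tt_sq (hS p hp).1.pos (z₀ : ℂ)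
    rw [norm_tt (hS p hp).1.pos] at this
    simpa using this
  have h1 : EE S (fun ω => (∏ p ∈ S, (Np p z₀ (ω p))⁻¹ - 1) ^ 2) =
      ∏ p ∈ S, E1 p (fun x => ‖Lp p (1 + (z₀ : ℂ)) x‖ ^ 2) -
        2 * ∏ p ∈ S, E1 p (fun x => (Np p z₀ x)⁻¹) + 1 := by
    rw [← EE_prod, ← EE_prod, ← EE_mul_left, ← EE_sub]
    have h2 : ∀ F : (ℕ → ℝ) → ℝ, EE S F + 1 = EE S (fun ω => F ω + 1) := by
      intro F; rw [EE_add, EE_const]
    rw [h2]
    congr 1
    funext ω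
    have h4 : ∏ p ∈ S, ‖Lp p (1 + (z₀ : ℂ)) (ω p)‖ ^ 2 = (∏ p ∈ S, (Np p z₀ (ω p))⁻¹) ^ 2 := by
      rw [← Finset.prod_pow]
      exact Finset.prod_congr rfl fun p hp => Lp_norm_sq (hS p hp).1.pos _ _
    rw [h4]
    ring
  rw [h1]
  have h2 : ∏ p ∈ S, E1 p (fun x => ‖Lp p (1 + (z₀ : ℂ)) x‖ ^ 2) ≤ Real.exp (3000 * T) := by
    calc ∏ p ∈ S, E1 p (fun x => ‖Lp p (1 + (z₀ : ℂ)) x‖ ^ 2)
        ≤ ∏ p ∈ S, Real.exp (3000 * (p : ℝ) ^ (-1 - 2 * z₀)) := by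
          refine Finset.prod_le_prod (fun p hp => ?_) fun p hp => ?_
          · have := E1_mono (hS p hp).1.one_lt.le (G := fun _ => 0)
              (H := fun x => ‖Lp p (1 + (z₀ : ℂ)) x‖ ^ 2) (fun x _ => by positivity)
            rwa [E1_const] at this
          · refine (E1_Lp2 hc (hS p hp).1 (hS p hp).2 (z := (z₀ : ℂ)) (by simpa using hz₀)).trans ?_
            rw [norm_tt_sq (hS p hp).1.pos]
            simp only [Complex.ofReal_re]
            linarith [Real.add_one_le_exp (3000 * (p : ℝ) ^ (-1 - 2 * z₀))]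
      _ = Real.exp (3000 * ∑ p ∈ S, (p : ℝ) ^ (-1 - 2 * z₀)) := by
          rw [Finset.mul_sum, Real.exp_sum]
      _ ≤ _ := by gcongr
  have h3 : 1 - T ≤ ∏ p ∈ S, E1 p (fun x => (Np p z₀ x)⁻¹) := by
    have := one_sub_sum_le (S := S) (a := fun p => (p : ℝ) ^ (-1 - 2 * z₀))
      (b := fun p => E1 p (fun x => (Np p z₀ x)⁻¹)) (fun p _ => by positivity)
      (fun p hp => by
        apply Real.rpow_le_one_of_one_le_of_nonpos
        · exact_mod_cast (hS p hp).1.one_lt.le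
        · linarith)
      (fun p hp => by
        have := E1_Lr_ge hc (hS p hp).1 (hS p hp).2 hz₀
        rwa [hsq p hp] at this)
    linarith
  linarith

/-- the sum over the remaining primes -/
lemma rest_T {L K : ℝ} (hL : 1 ≤ L) (hK : 1 ≤ K) (hKL : K ≤ L) (N : ℕ) :
    ∑ p ∈ QN N \ UU L 0, (p : ℝ) ^ (-1 - 2 * (K / L)) ≤ 2640 * Real.exp (-K / 8000) := by
  have hL0 : 0 < L := by linarith
  set y : ℝ := max 2 (yk L 0) with hy
  have hy2 : 2 ≤ y := le_max_left _ _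
  have hly0 : 0 < Real.log y := Real.log_pos (by linarith)
  have hly : L / 8000 ≤ Real.log y := by
    have h1 : Real.log (yk L 0) = L / 8000 := by rw [log_yk]; simp
    rw [← h1]
    exact Real.log_le_log (yk_pos _ _) (le_max_right _ _)
  have hpr : ∀ p ∈ QN N \ UU L 0, p.Prime := fun p hp => (mem_QN.1 (mem_sdiff.1 hp).1).2.1
  have h1 := sum_rpow_tail' hpr hy2 (σ := K / L) (by positivity)
    (by rw [div_le_one hL0]; exact hKL) (fun p hp => by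
      refine max_le ?_ ?_
      · exact_mod_cast (hpr p hp).two_le
      · have := rest_large hL (k₁ := 2 * 0) hp
        simpa using this)
  have h2 : ∑ p ∈ QN N \ UU L 0, (p : ℝ) ^ (-1 - 2 * (K / L)) ≤
      ∑ p ∈ QN N \ UU L 0, (p : ℝ) ^ (-1 - K / L) := by
    refine Finset.sum_le_sum fun p hp => ?_
    apply Real.rpow_le_rpow_of_exponent_le (by exact_mod_cast (hpr p hp).one_lt.le)
    have : 0 ≤ K / L := by positivity
    linarith
  refine h2.trans (h1.trans ?_)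
  have hkl : K / 8000 ≤ K / L * Real.log y := by
    calc K / 8000 = K / L * (L / 8000) := by field_simp
      _ ≤ _ := by gcongr
  have h3 : Real.exp (-(K / L) * Real.log y) ≤ Real.exp (-K / 8000) := by
    apply Real.exp_le_exp.2
    linarith
  have h4 : 1 + 1 / (K / L * Real.log y) ≤ 8001 := by
    have : 1 / (K / L * Real.log y) ≤ 8000 := by
      rw [div_le_iff₀ (by positivity)]
      linarith
    linarith
  have h5 : Real.log (1 + 1 / (K / L * Real.log y)) ≤ 9 := by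
    have h6 : Real.log (1 + 1 / (K / L * Real.log y)) ≤ Real.log 8001 :=
      Real.log_le_log (by positivity) h4
    have h7 : Real.log 8001 ≤ 9 := by
      rw [Real.log_le_iff_le_exp (by norm_num)]
      have : Real.exp 9 = Real.exp 1 ^ 9 := by rw [← Real.exp_nat_mul]; norm_num
      rw [this]
      have h8 : (2.718 : ℝ) ≤ Real.exp 1 := by linarith [Real.exp_one_gt_d9]
      calc (8001 : ℝ) ≤ 2.718 ^ 9 := by norm_num
        _ ≤ Real.exp 1 ^ 9 := by gcongr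
    linarith
  have h6 : 0 ≤ Real.log (1 + 1 / (K / L * Real.log y)) := by
    apply Real.log_nonneg
    have : 0 ≤ 1 / (K / L * Real.log y) := by positivity
    linarith
  calc 264 * Real.exp (-(K / L) * Real.log y) * (1 + Real.log (1 + 1 / (K / L * Real.log y)))
      ≤ 264 * Real.exp (-K / 8000) * (1 + 9) := by gcongr
    _ = _ := by ring

/-- the bound for `η`: `p > y_{k+1}` -/
lemma eta_bound {L K : ℝ} (hL0 : 0 < L) (hK : 0 ≤ K) (k : ℕ) :
    ∀ p ∈ Ik L k, (p : ℝ) ^ (-(K / L)) ≤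
      Real.exp (-(K / 8000 * Real.exp (-((k + 1 : ℕ) : ℝ)))) := by
  intro p hp
  have h1 := (mem_Ik.1 hp).2.2.2
  have h2 : (p : ℝ) ^ (-(K / L)) ≤ (yk L (k + 1)) ^ (-(K / L)) := by
    apply Real.rpow_le_rpow_of_nonpos (yk_pos _ _) h1.le
    have : 0 ≤ K / L := by positivity
    linarith
  refine h2.trans (le_of_eq ?_)
  rw [Real.rpow_def_of_pos (yk_pos _ _), log_yk]
  congr 1
  field_simp

/-- the blocks together with the remaining primes -/
noncomputable def IX (L : ℝ) (N k : ℕ) : Finset ℕ :=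
  if k < ⌈L⌉₊ then Ik L k else QN N \ UU L 0

lemma UU_zero (L : ℝ) : UU L 0 = (range ⌈L⌉₊).biUnion (fun k => Ik L k) := by
  unfold UU
  rw [mul_zero, Finset.range_eq_Ico]

lemma IX_biUnion {L : ℝ} (hL : 0 ≤ L) {N : ℕ} (hN : yk L 0 < N) :
    (range (⌈L⌉₊ + 1)).biUnion (IX L N) = QN N := by
  rw [Finset.range_add_one, Finset.biUnion_insert]
  have h1 : IX L N ⌈L⌉₊ = QN N \ UU L 0 := by simp [IX]
  have h2 : (range ⌈L⌉₊).biUnion (IX L N) = UU L 0 := by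
    rw [UU_zero]
    refine Finset.biUnion_congr rfl fun k hk => ?_
    simp [IX, mem_range.1 hk]
  rw [h1, h2]
  exact Finset.sdiff_union_of_subset (by
    rw [UU_zero]
    exact Ik_sub_QN hL hN _)

lemma IX_disj {L : ℝ} (hL : 0 ≤ L) {N : ℕ} :
    ((range (⌈L⌉₊ + 1) : Finset ℕ) : Set ℕ).PairwiseDisjoint (IX L N) := by
  intro k hk l hl hkl
  have hk' : k < ⌈L⌉₊ + 1 := by simpa using hk
  have hl' : l < ⌈L⌉₊ + 1 := by simpa using hl
  have key : ∀ k, k < ⌈L⌉₊ → Disjoint (Ik L k) (QN N \ UU L 0) := by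
    intro k hk
    refine Finset.disjoint_left.2 fun p hp hq => ?_
    exact (mem_sdiff.1 hq).2 (by
      rw [UU_zero]
      exact mem_biUnion.2 ⟨k, mem_range.2 hk, hp⟩)
  simp only [Function.onFun, IX]
  by_cases h1 : k < ⌈L⌉₊
  · by_cases h2 : l < ⌈L⌉₊
    · rw [if_pos h1, if_pos h2]
      exact Ik_pairwise hL (range (⌈L⌉₊ + 1)) hk hl hkl
    · rw [if_pos h1, if_neg h2]
      exact key k h1
  · by_cases h2 : l < ⌈L⌉₊
    · rw [if_neg h1, if_pos h2]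
      exact (key l h2).symm
    · omega

/-- the deviations -/
noncomputable def YX (L K : ℝ) (N k : ℕ) (ω : ℕ → ℝ) : ℝ :=
  if k < ⌈L⌉₊ then MM (Ik L k) (lk k) (K / L) ω * ∏ p ∈ Ik L k, (Np p (K / L) (ω p))⁻¹ - 1
  else ∏ p ∈ QN N \ UU L 0, (Np p (K / L) (ω p))⁻¹ - 1

lemma YX_depOn (L K : ℝ) (N k : ℕ) : DepOn (IX L N k) (YX L K N k) := by
  intro ω ω' h
  unfold IX at h
  unfold YX
  split_ifs with hk
  · rw [if_pos hk] at h
    have h1 := MM_depOn (I := Ik L k) (fun p hp => Ik_prime hp) (lk k) (K / L) ω ω' h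
    simp only at h1
    rw [h1]
    congr 2
    exact Finset.prod_congr rfl fun p hp => by rw [h p hp]
  · rw [if_neg hk] at h
    congr 1
    exact Finset.prod_congr rfl fun p hp => by rw [h p hp]

/-- the expectation in `StR3` -/
lemma R3_main (hc : StCoef) {L K : ℝ} {N : ℕ} (hL : 1 ≤ L) (hK : 1 ≤ K)
    (hN : yk L 0 < N) (s : ℕ → ℝ) (hs : ∀ k, 0 ≤ s k)
    (h1 : ∀ k < ⌈L⌉₊, EE (Ik L k) (fun ω => (MM (Ik L k) (lk k) (K / L) ω *
      ∏ p ∈ Ik L k, (Np p (K / L) (ω p))⁻¹ - 1) ^ 2) ≤ s k ^ 2)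
    (h2 : EE (QN N \ UU L 0) (fun ω => (∏ p ∈ QN N \ UU L 0, (Np p (K / L) (ω p))⁻¹ - 1) ^ 2) ≤
      s ⌈L⌉₊ ^ 2) :
    EN N (fun X => ‖(Mf L K 0 ⌈L⌉₊ X : ℂ) * LN N X (1 + K / L) - 1‖ ^ 2) ≤
      (∏ k ∈ range (⌈L⌉₊ + 1), (1 + s k) - 1) ^ 2 := by
  have hL0 : 0 ≤ L := by linarith
  rw [P004.H628.EN_eq]
  have hIX1 : ∀ k ∈ range (⌈L⌉₊ + 1), ∀ p ∈ IX L N k, 1 ≤ p := by
    intro k _ p hp
    unfold IX at hp
    split_ifs at hp
    · exact (Ik_prime hp).one_lt.le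
    · exact (mem_QN.1 (mem_sdiff.1 hp).1).2.1.one_lt.le
  have hEY : ∀ k ∈ range (⌈L⌉₊ + 1), EE (IX L N k) (fun ω => YX L K N k ω ^ 2) ≤ s k ^ 2 := by
    intro k hk
    by_cases hkL : k < ⌈L⌉₊
    · have := h1 k hkL
      simpa only [IX, YX, if_pos hkL] using this
    · have hkeq : k = ⌈L⌉₊ := by have := mem_range.1 hk; omega
      subst hkeq
      simpa only [IX, YX, if_neg hkL] using h2
  have hmain := P004.H128.prod_sub_one hIX1 (IX_disj hL0) (YX L K N)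
    (fun k _ => YX_depOn L K N k) s (fun k _ => hs k) hEY
  rw [IX_biUnion hL0 hN] at hmain
  refine le_trans (le_of_eq ?_) hmain
  have hQ : QN N ⊆ range N := fun p hp => mem_range.2 (mem_QN.1 hp).1
  have hdep : DepOn (QN N) (fun ω => (∏ k ∈ range (⌈L⌉₊ + 1), (1 + YX L K N k ω) - 1) ^ 2) := by
    intro ω ω' h
    simp only
    congr 2
    refine Finset.prod_congr rfl fun k hk => ?_
    rw [YX_depOn L K N k ω ω' fun p hp => h p ?_]
    rw [← IX_biUnion hL0 hN]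
    exact mem_biUnion.2 ⟨k, hk, hp⟩
  rw [← EE_of_depOn hQ hdep]
  congr 1
  funext ω
  have hs' : (1 : ℂ) + (K : ℂ) / (L : ℂ) = 1 + ((K / L : ℝ) : ℂ) := by push_cast; rfl
  have h3 : LN N (P004.H628.ffx ω) (1 + (K : ℂ) / (L : ℂ)) =
      ((∏ p ∈ QN N, (Np p (K / L) (ω p))⁻¹ : ℝ) : ℂ) := by
    rw [LN_eq, hs']
    push_cast
    refine Finset.prod_congr rfl fun p hp => ?_
    rw [← Complex.ofReal_inv, ← Lp_real (mem_QN.1 hp).2.1.pos]
    push_cast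
    rfl
  rw [h3, Mf_eq]
  have h4 : ((∏ k ∈ Ico 0 ⌈L⌉₊, MM (Ik L k) (lk k) (K / L) ω : ℝ) : ℂ) *
      ((∏ p ∈ QN N, (Np p (K / L) (ω p))⁻¹ : ℝ) : ℂ) - 1 =
      (((∏ k ∈ Ico 0 ⌈L⌉₊, MM (Ik L k) (lk k) (K / L) ω) *
        (∏ p ∈ QN N, (Np p (K / L) (ω p))⁻¹) - 1 : ℝ) : ℂ) := by push_cast; rfl
  rw [h4, Complex.norm_real, Real.norm_eq_abs, sq_abs]
  congr 2
  rw [LN_split hL0 hN (Ico 0 ⌈L⌉₊) (fun p => (Np p (K / L) (ω p))⁻¹), Finset.prod_range_succ,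
    ← mul_assoc, ← Finset.prod_mul_distrib, ← Finset.range_eq_Ico]
  congr 1
  · refine Finset.prod_congr rfl fun k hk => ?_
    unfold YX
    rw [if_pos (mem_range.1 hk)]
    ring
  · unfold YX
    rw [if_neg (lt_irrefl _), UU_zero]
    ring

theorem pfR3 (hc : StCoef) : StR3 := by
  obtain ⟨C₁, c₁, hC₁, hc₁, hsum⟩ := P004.H128.sum_trunc
  set c : ℝ := min c₁ (1 / 16000) with hcdef
  have hc0 : 0 < c := lt_min hc₁ (by norm_num)
  set C₂ : ℝ := (3000 * Real.exp (3000 * 2640) + 2) * 2640 with hC₂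
  have hC₂0 : 0 < C₂ := by positivity
  set C₃ : ℝ := √CP * C₁ + √C₂ with hC₃
  have hC₃0 : 0 < C₃ := by
    have := one_le_CP
    positivity
  refine ⟨max 1 ((C₃ * Real.exp C₃) ^ 2), c, le_max_left _ _, hc0, fun L K N hL hK hKL hN => ?_⟩
  have hL0 : 0 < L := by linarith
  have hK0 : 0 ≤ K := by linarith
  -- the sizes
  set s : ℕ → ℝ := fun k => if k < ⌈L⌉₊ then
    √CP * (Real.exp (-(K / 8000 * Real.exp (-((k + 1 : ℕ) : ℝ)))) / 3) ^ lk k
    else √C₂ * Real.exp (-K / 16000) with hsdef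
  have hs0 : ∀ k, 0 ≤ s k := by
    intro k
    simp only [hsdef]
    split_ifs <;> positivity
  have hT := rest_T hL hK hKL N
  set T : ℝ := 2640 * Real.exp (-K / 8000) with hTdef
  have hT0 : 0 ≤ T := by positivity
  have hT1 : T ≤ 2640 := by
    have : Real.exp (-K / 8000) ≤ 1 := by
      apply Real.exp_le_one_iff.2
      linarith
    linarith
  have hrest := rest_sub_one hc (S := QN N \ UU L 0) (z₀ := K / L) (T := T) (fun p hp => by
    have := mem_QN.1 (mem_sdiff.1 hp).1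
    exact ⟨this.2.1, three_le this.2.1 this.2.2⟩) (by positivity) hT
  have hrest2 : Real.exp (3000 * T) - 1 + 2 * T ≤ C₂ * Real.exp (-K / 8000) := by
    have h1 : Real.exp (3000 * T) - 1 ≤ 3000 * T * Real.exp (3000 * T) := by
      have h2 := Real.add_one_le_exp (-(3000 * T))
      have h3 : Real.exp (3000 * T) * Real.exp (-(3000 * T)) = 1 := by
        rw [← Real.exp_add]; simp
      nlinarith [Real.exp_pos (3000 * T)]
    have h2 : Real.exp (3000 * T) ≤ Real.exp (3000 * 2640) := by gcongr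
    calc Real.exp (3000 * T) - 1 + 2 * T ≤ 3000 * T * Real.exp (3000 * 2640) + 2 * T := by
          have : 3000 * T * Real.exp (3000 * T) ≤ 3000 * T * Real.exp (3000 * 2640) := by gcongr
          linarith
      _ = C₂ * Real.exp (-K / 8000) := by rw [hC₂, hTdef]; ring
  have hmain := R3_main hc hL hK hN s hs0 (fun k hk => by
    have h1 := block_sub_one hc hL0.le k (z₀ := K / L)
      (η := Real.exp (-(K / 8000 * Real.exp (-((k + 1 : ℕ) : ℝ))))) (by positivity)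
      (Real.exp_pos _) (Real.exp_le_one_iff.2 (by
        have : 0 ≤ K / 8000 * Real.exp (-((k + 1 : ℕ) : ℝ)) := by positivity
        linarith)) (eta_bound hL0 hK0 k) (lk k)
    simpa only [hsdef, if_pos hk] using h1) (by
    refine hrest.trans (hrest2.trans (le_of_eq ?_))
    simp only [hsdef, if_neg (lt_irrefl _)]
    rw [mul_pow, Real.sq_sqrt hC₂0.le, ← Real.exp_nat_mul]
    congr 2
    push_cast
    ring)
  -- the total
  have hS : ∑ k ∈ range (⌈L⌉₊ + 1), s k ≤ C₃ * Real.exp (-c * √K) := by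
    rw [Finset.sum_range_succ]
    have h1 : ∑ k ∈ range ⌈L⌉₊, s k ≤ √CP * (C₁ * Real.exp (-c₁ * √K)) := by
      have h2 : ∑ k ∈ range ⌈L⌉₊, s k = √CP * ∑ k ∈ range ⌈L⌉₊,
          (Real.exp (-(K / 8000 * Real.exp (-((k + 1 : ℕ) : ℝ)))) / 3) ^ lk k := by
        rw [Finset.mul_sum]
        refine Finset.sum_congr rfl fun k hk => ?_
        simp only [hsdef, if_pos (mem_range.1 hk)]
      rw [h2]
      have := hsum K (range ⌈L⌉₊) hK
      gcongr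
    have h2 : s ⌈L⌉₊ = √C₂ * Real.exp (-K / 16000) := by
      simp only [hsdef, if_neg (lt_irrefl _)]
    have hsK : √K ≤ K := by
      rw [Real.sqrt_le_left hK0]
      nlinarith
    have hsK0 : 0 ≤ √K := Real.sqrt_nonneg _
    have h3 : Real.exp (-c₁ * √K) ≤ Real.exp (-c * √K) := by
      apply Real.exp_le_exp.2
      have : c ≤ c₁ := min_le_left _ _
      nlinarith
    have h4 : Real.exp (-K / 16000) ≤ Real.exp (-c * √K) := by
      apply Real.exp_le_exp.2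
      have : c ≤ 1 / 16000 := min_le_right _ _
      nlinarith
    rw [h2]
    calc ∑ k ∈ range ⌈L⌉₊, s k + √C₂ * Real.exp (-K / 16000)
        ≤ √CP * (C₁ * Real.exp (-c * √K)) + √C₂ * Real.exp (-c * √K) := by
          refine add_le_add (h1.trans ?_) ?_ <;> gcongr
      _ = _ := by rw [hC₃]; ring
  have hE1 : Real.exp (-c * √K) ≤ 1 := by
    apply Real.exp_le_one_iff.2
    have := Real.sqrt_nonneg K
    nlinarith
  have hS0 : 0 ≤ ∑ k ∈ range (⌈L⌉₊ + 1), s k := Finset.sum_nonneg fun k _ => hs0 k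
  have hprod : ∏ k ∈ range (⌈L⌉₊ + 1), (1 + s k) ≤
      Real.exp (∑ k ∈ range (⌈L⌉₊ + 1), s k) := by
    rw [Real.exp_sum]
    refine Finset.prod_le_prod (fun k _ => by linarith [hs0 k]) fun k _ => ?_
    linarith [Real.add_one_le_exp (s k)]
  have hprod1 : 1 ≤ ∏ k ∈ range (⌈L⌉₊ + 1), (1 + s k) :=
    one_le_prod_real fun k _ => by linarith [hs0 k]
  set S := ∑ k ∈ range (⌈L⌉₊ + 1), s k with hSdef
  have hexp : Real.exp S - 1 ≤ S * Real.exp S := by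
    have h2 := Real.add_one_le_exp (-S)
    have h3 : Real.exp S * Real.exp (-S) = 1 := by rw [← Real.exp_add]; simp
    nlinarith [Real.exp_pos S]
  have hSC : S ≤ C₃ := by nlinarith
  have hfin : ∏ k ∈ range (⌈L⌉₊ + 1), (1 + s k) - 1 ≤
      (C₃ * Real.exp C₃) * Real.exp (-c * √K) := by
    calc ∏ k ∈ range (⌈L⌉₊ + 1), (1 + s k) - 1 ≤ S * Real.exp S := by linarith
      _ ≤ (C₃ * Real.exp (-c * √K)) * Real.exp C₃ := by gcongr
      _ = _ := by ring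
  refine hmain.trans ?_
  calc (∏ k ∈ range (⌈L⌉₊ + 1), (1 + s k) - 1) ^ 2
      ≤ ((C₃ * Real.exp C₃) * Real.exp (-c * √K)) ^ 2 := by
        refine pow_le_pow_left₀ (by linarith) hfin 2
    _ = (C₃ * Real.exp C₃) ^ 2 * (Real.exp (-c * √K) * Real.exp (-c * √K)) := by ring
    _ ≤ (C₃ * Real.exp C₃) ^ 2 * (Real.exp (-c * √K) * 1) := by gcongr
    _ = (C₃ * Real.exp C₃) ^ 2 * Real.exp (-c * √K) := by rw [mul_one]
    _ ≤ _ := by
        gcongr
        exact le_max_right _ _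

end P004G.H293
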