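import Vale.Agent.P004G.H293.Blk
import Vale.Agent.P004.H293.Blk2

/-!
# P004G: moments of one block of the mollifier in the random model
-/

open Finset Real

namespace P004G.H293

variable [Crv]

open P004.H293

/-- the truncated block -/
noncomputable def MM (I : Finset ℕ) (l : ℕ) (z₀ : ℝ) (ω : ℕ → ℝ) : ℝ :=
  ∑ a ∈ (∏ p ∈ I, p ^ 2).divisors.filter (fun a => ArithmeticFunction.cardFactors a ≤ l),
    muc a * (a : ℝ) ^ (-1 - z₀) * ffx ω a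

/-- the truncation error -/
noncomputable def RR (I : Finset ℕ) (l : ℕ) (z₀ : ℝ) (ω : ℕ → ℝ) : ℝ :=
  ∑ a ∈ (∏ p ∈ I, p ^ 2).divisors,
    (if ArithmeticFunction.cardFactors a ≤ l then 0 else muc a * (a : ℝ) ^ (-1 - z₀)) * ffx ω a

lemma MM_eq_sum (I : Finset ℕ) (l : ℕ) (z₀ : ℝ) (ω : ℕ → ℝ) :
    MM I l z₀ ω = ∑ a ∈ (∏ p ∈ I, p ^ 2).divisors,
      (if ArithmeticFunction.cardFactors a ≤ l then muc a * (a : ℝ) ^ (-1 - z₀) else 0) *
        ffx ω a := by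
  unfold MM
  rw [Finset.sum_filter]
  refine Finset.sum_congr rfl fun a _ => ?_
  split_ifs <;> simp

lemma MM_add_RR {I : Finset ℕ} (hI : ∀ p ∈ I, p.Prime) (l : ℕ) (z₀ : ℝ) (ω : ℕ → ℝ) :
    MM I l z₀ ω + RR I l z₀ ω = ∏ p ∈ I, Np p z₀ (ω p) := by
  rw [← full_block I hI, MM_eq_sum, RR, ← Finset.sum_add_distrib]
  refine Finset.sum_congr rfl fun a _ => ?_
  split_ifs <;> ring

lemma mem_div {I : Finset ℕ} (hI : ∀ p ∈ I, p.Prime) {a : ℕ}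
    (ha : a ∈ (∏ p ∈ I, p ^ 2).divisors) : a ≠ 0 ∧ a.primeFactors ⊆ I := by
  refine ⟨(Nat.pos_of_mem_divisors ha).ne', fun p hp => ?_⟩
  have hpp := Nat.prime_of_mem_primeFactors hp
  have h1 : p ∣ ∏ p ∈ I, p ^ 2 :=
    (Nat.dvd_of_mem_primeFactors hp).trans (Nat.dvd_of_mem_divisors ha)
  obtain ⟨q, hq, hpq⟩ := (hpp.prime.dvd_finsetProd_iff _).1 h1
  have := (Nat.prime_dvd_prime_iff_eq hpp (hI q hq)).1 (hpp.dvd_of_dvd_pow hpq)
  rwa [this]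

lemma depOn_sum_ffx {I : Finset ℕ} {T : Finset ℕ} (hT : ∀ a ∈ T, a.primeFactors ⊆ I) (c : ℕ → ℝ) :
    DepOn I (fun ω => ∑ a ∈ T, c a * ffx ω a) := by
  intro ω ω' h
  refine Finset.sum_congr rfl fun a ha => ?_
  have := ffx_depOn (hT a ha) ω ω' h
  simp only at this
  rw [this]

lemma MM_depOn {I : Finset ℕ} (hI : ∀ p ∈ I, p.Prime) (l : ℕ) (z₀ : ℝ) :
    DepOn I (fun ω => MM I l z₀ ω) := by
  have := depOn_sum_ffx (fun a ha => (mem_div hI ha).2)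
    (fun a => if ArithmeticFunction.cardFactors a ≤ l then muc a * (a : ℝ) ^ (-1 - z₀) else 0)
  simpa only [MM_eq_sum] using this

/-- the product of the majorants -/
noncomputable def PP (I : Finset ℕ) : ℝ := ∏ p ∈ I, (1 + 3000000 * (1 / (p : ℝ)))

lemma one_le_prod_real {I : Finset ℕ} {f : ℕ → ℝ} (h : ∀ p ∈ I, 1 ≤ f p) : 1 ≤ ∏ p ∈ I, f p := by
  calc (1 : ℝ) = ∏ p ∈ I, (1 : ℝ) := by simp
    _ ≤ _ := Finset.prod_le_prod (fun _ _ => zero_le_one) h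

lemma one_le_PP (I : Finset ℕ) : 1 ≤ PP I := by
  unfold PP
  refine one_le_prod_real fun p _ => ?_
  have : (0 : ℝ) ≤ 1 / p := by positivity
  linarith

lemma prod_le_PP (I : Finset ℕ) {c : ℝ} (hc0 : 0 ≤ c) (hc : c ≤ 3000000) :
    ∏ p ∈ I, (1 + c * (1 / (p : ℝ))) ≤ PP I := by
  refine Finset.prod_le_prod (fun p _ => by positivity) fun p _ => ?_
  have : (0 : ℝ) ≤ 1 / p := by positivity
  nlinarith

section
variable {I : Finset ℕ} (hI : ∀ p ∈ I, p.Prime) (hI3 : ∀ p ∈ I, 3 ≤ p)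
include hI hI3

/-- second moment of the truncated block -/
theorem EE_MM2 (hc : StCoef) (l : ℕ) {z₀ : ℝ} (hz₀ : 0 ≤ z₀) :
    EE I (fun ω => MM I l z₀ ω ^ 2) ≤ ∏ p ∈ I, (1 + 11000 * (1 / (p : ℝ))) := by
  have hS : ∀ p ∈ I, 1 ≤ p := fun p hp => (hI p hp).one_lt.le
  have h1 : EE I (fun ω => MM I l z₀ ω ^ 2) ≤
      EE I (fun ω => (∑ a ∈ (∏ p ∈ I, p ^ 2).divisors,
        (∏ p ∈ a.primeFactors, hh p (a.factorization p)) * ffx ω a) ^ 2) := by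
    simp only [MM_eq_sum]
    refine Dom.two hS _ _ _ (fun a ha => (mem_div hI ha).1) fun a ha => ?_
    obtain ⟨ha0, haI⟩ := mem_div hI ha
    have hnn : 0 ≤ ∏ p ∈ a.primeFactors, hh p (a.factorization p) :=
      Finset.prod_nonneg fun _ _ => hh_nonneg _ _
    split_ifs with h
    · refine (abs_cc_le hc I (η := 1) (fun p hp => ?_) ha0 haI).trans ?_
      · exact Real.rpow_le_one_of_one_le_of_nonpos (by exact_mod_cast hS p hp) (by linarith)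
      · have : (1 / 3 : ℝ) ^ ArithmeticFunction.cardFactors a ≤ 1 :=
          pow_le_one₀ (by norm_num) (by norm_num)
        nlinarith
    · simpa using hnn
  refine h1.trans ?_
  simp only [maj_block I hI]
  have h2 : EE I (fun ω => (∏ p ∈ I, (1 + 3 * (p : ℝ) ^ (-(1 / 2) : ℝ) * ω p) ^ 2) ^ 2) =
      ∏ p ∈ I, E1 p (fun x => (1 + 3 * (p : ℝ) ^ (-(1 / 2) : ℝ) * x) ^ 4) := by
    rw [← EE_prod]
    congr 1
    funext ω
    rw [← Finset.prod_pow]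
    refine Finset.prod_congr rfl fun p _ => ?_
    ring
  rw [h2]
  refine Finset.prod_le_prod (fun p hp => ?_) fun p hp => E1_maj4 (hI3 p hp)
  have := E1_mono (hS p hp) (G := fun _ => 0)
    (H := fun x => (1 + 3 * (p : ℝ) ^ (-(1 / 2) : ℝ) * x) ^ 4) (fun x _ => by positivity)
  rwa [E1_const] at this

/-- fourth moment of the truncation error -/
theorem EE_RR4 (hc : StCoef) (l : ℕ) {z₀ η : ℝ} (hη0 : 0 ≤ η) (hη1 : η ≤ 1)
    (hη : ∀ p ∈ I, (p : ℝ) ^ (-z₀) ≤ η) :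
    EE I (fun ω => RR I l z₀ ω ^ 4) ≤ (η / 3) ^ (4 * l) * ∏ p ∈ I, (1 + 11000 * (1 / (p : ℝ))) := by
  have hS : ∀ p ∈ I, 1 ≤ p := fun p hp => (hI p hp).one_lt.le
  have hη3 : 0 ≤ η / 3 := by positivity
  have hη31 : η / 3 ≤ 1 := by linarith
  have h1 : EE I (fun ω => RR I l z₀ ω ^ 4) ≤
      EE I (fun ω => (∑ a ∈ (∏ p ∈ I, p ^ 2).divisors,
        ((η / 3) ^ l * ∏ p ∈ a.primeFactors, hh p (a.factorization p)) * ffx ω a) ^ 4) := by
    simp only [RR]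
    refine Dom.four hS _ _ _ (fun a ha => (mem_div hI ha).1) fun a ha => ?_
    obtain ⟨ha0, haI⟩ := mem_div hI ha
    have hnn : 0 ≤ ∏ p ∈ a.primeFactors, hh p (a.factorization p) :=
      Finset.prod_nonneg fun _ _ => hh_nonneg _ _
    split_ifs with h
    · rw [abs_zero]; positivity
    · refine (abs_cc_le hc I hη ha0 haI).trans ?_
      refine mul_le_mul_of_nonneg_right ?_ hnn
      exact pow_le_pow_of_le_one hη3 hη31 (by omega)
  refine h1.trans ?_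
  have h3 : ∀ ω, (∑ a ∈ (∏ p ∈ I, p ^ 2).divisors,
        ((η / 3) ^ l * ∏ p ∈ a.primeFactors, hh p (a.factorization p)) * ffx ω a) ^ 4 =
      (η / 3) ^ (4 * l) * ∏ p ∈ I, (1 + 3 * (p : ℝ) ^ (-(1 / 2) : ℝ) * ω p) ^ 8 := by
    intro ω
    simp only [mul_assoc]
    rw [← Finset.mul_sum, maj_block I hI, mul_pow, ← pow_mul, mul_comm l 4, ← Finset.prod_pow]
    congr 1
    refine Finset.prod_congr rfl fun p _ => ?_
    ring
  simp only [h3]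
  rw [EE_mul_left, EE_prod I (fun p x => (1 + 3 * (p : ℝ) ^ (-(1 / 2) : ℝ) * x) ^ 8)]
  refine mul_le_mul_of_nonneg_left ?_ (by positivity)
  refine Finset.prod_le_prod (fun p hp => ?_) fun p hp => E1_maj8 (hI3 p hp)
  have := E1_mono (hS p hp) (G := fun _ => 0)
    (H := fun x => (1 + 3 * (p : ℝ) ^ (-(1 / 2) : ℝ) * x) ^ 8) (fun x _ => by positivity)
  rwa [E1_const] at this

theorem EE_L4 (hc : StCoef) {z : ℂ} (hz : 0 ≤ z.re) :
    EE I (fun ω => ∏ p ∈ I, ‖Lp p (1 + z) (ω p)‖ ^ 4) ≤ PP I := by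
  rw [EE_prod I (fun p x => ‖Lp p (1 + z) x‖ ^ 4)]
  refine Finset.prod_le_prod (fun p hp => ?_) fun p hp => ?_
  · have := E1_mono (hI p hp).one_lt.le (G := fun _ => 0)
      (H := fun x => ‖Lp p (1 + z) x‖ ^ 4) (fun x _ => by positivity)
    rwa [E1_const] at this
  · refine (E1_Lp4 hc (hI p hp) (hI3 p hp) hz).trans ?_
    have h1 := norm_tt_le' (hI3 p hp) hz
    have h2 : ‖tt p z‖ ^ 2 ≤ 1 / p := by
      rw [← inv_sqrt_sq (hI p hp).pos]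
      exact pow_le_pow_left₀ (norm_nonneg _) h1 2
    linarith

/-- the truncation error times the Euler product -/
theorem EE_RL (hc : StCoef) (l : ℕ) {z₀ η : ℝ} (hη0 : 0 < η) (hη1 : η ≤ 1)
    (hη : ∀ p ∈ I, (p : ℝ) ^ (-z₀) ≤ η) {z : ℂ} (hz : 0 ≤ z.re) :
    EE I (fun ω => RR I l z₀ ω ^ 2 * ∏ p ∈ I, ‖Lp p (1 + z) (ω p)‖ ^ 2) ≤
      (η / 3) ^ (2 * l) * PP I := by
  have hS : ∀ p ∈ I, 1 ≤ p := fun p hp => (hI p hp).one_lt.le
  set q := (η / 3) ^ (2 * l) with hq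
  have hq0 : 0 < q := by positivity
  have h1 : EE I (fun ω => RR I l z₀ ω ^ 2 * ∏ p ∈ I, ‖Lp p (1 + z) (ω p)‖ ^ 2) ≤
      EE I (fun ω => q⁻¹ / 2 * RR I l z₀ ω ^ 4 + q / 2 * ∏ p ∈ I, ‖Lp p (1 + z) (ω p)‖ ^ 4) := by
    refine EE_mono hS fun ω _ => ?_
    have e : ∏ p ∈ I, ‖Lp p (1 + z) (ω p)‖ ^ 4 = (∏ p ∈ I, ‖Lp p (1 + z) (ω p)‖ ^ 2) ^ 2 := by
      rw [← Finset.prod_pow]
      refine Finset.prod_congr rfl fun p _ => ?_
      ring
    rw [e]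
    set b := ∏ p ∈ I, ‖Lp p (1 + z) (ω p)‖ ^ 2
    set a := RR I l z₀ ω ^ 2 with ha
    have e2 : RR I l z₀ ω ^ 4 = a ^ 2 := by rw [ha]; ring
    rw [e2]
    have h0 : 0 ≤ (q⁻¹ * a - b) ^ 2 * q := by positivity
    have h3 : (q⁻¹ * a - b) ^ 2 * q = q⁻¹ * a ^ 2 - 2 * a * b + q * b ^ 2 := by
      field_simp
      ring
    nlinarith
  refine h1.trans ?_
  rw [EE_add, EE_mul_left, EE_mul_left]
  have h2 := EE_RR4 hI hI3 hc l hη0.le hη1 hη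
  have h3 := EE_L4 hI hI3 hc hz
  have h4 : (η / 3) ^ (4 * l) = q ^ 2 := by rw [hq, ← pow_mul]; congr 1; ring
  rw [h4] at h2
  have h5 := prod_le_PP I (c := 11000) (by norm_num) (by norm_num)
  calc q⁻¹ / 2 * EE I (fun ω => RR I l z₀ ω ^ 4) +
        q / 2 * EE I (fun ω => ∏ p ∈ I, ‖Lp p (1 + z) (ω p)‖ ^ 4)
      ≤ q⁻¹ / 2 * (q ^ 2 * PP I) + q / 2 * PP I := by
        gcongr
        exact h2.trans (by gcongr)
    _ = q * PP I := by field_simp; ring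

/-- the mollified block -/
theorem EE_ML (hc : StCoef) (l : ℕ) {z₀ : ℝ} (hz₀ : 0 ≤ z₀) {z : ℂ} (hz : 0 ≤ z.re) :
    EE I (fun ω => MM I l z₀ ω ^ 2 * ∏ p ∈ I, ‖Lp p (1 + z) (ω p)‖ ^ 2) ≤
      Real.exp (3 * PP I * (1 / 3) ^ l +
        ∑ p ∈ I, 6000 * (‖tt p z - tt p z₀‖ * (p : ℝ) ^ (-(1 / 2) : ℝ))) := by
  have hS : ∀ p ∈ I, 1 ≤ p := fun p hp => (hI p hp).one_lt.le
  set s : ℝ := (1 / 3) ^ l with hs
  have hs0 : 0 < s := by positivity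
  have hs1 : s ≤ 1 := pow_le_one₀ (by norm_num) (by norm_num)
  set W : ℝ := ∏ p ∈ I, (1 + 6000 * (‖tt p z - tt p z₀‖ * (p : ℝ) ^ (-(1 / 2) : ℝ))) with hW
  have hW1 : 1 ≤ W := by
    rw [hW]
    refine one_le_prod_real fun p _ => ?_
    have : 0 ≤ ‖tt p z - tt p z₀‖ * (p : ℝ) ^ (-(1 / 2) : ℝ) := by positivity
    linarith
  have h1 : EE I (fun ω => MM I l z₀ ω ^ 2 * ∏ p ∈ I, ‖Lp p (1 + z) (ω p)‖ ^ 2) ≤
      EE I (fun ω => (1 + s) * ∏ p ∈ I, ‖(Np p z₀ (ω p) : ℂ) * Lp p (1 + z) (ω p)‖ ^ 2 +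
        (1 + s⁻¹) * (RR I l z₀ ω ^ 2 * ∏ p ∈ I, ‖Lp p (1 + z) (ω p)‖ ^ 2)) := by
    refine EE_mono hS fun ω _ => ?_
    have e : ∏ p ∈ I, ‖(Np p z₀ (ω p) : ℂ) * Lp p (1 + z) (ω p)‖ ^ 2 =
        (MM I l z₀ ω + RR I l z₀ ω) ^ 2 * ∏ p ∈ I, ‖Lp p (1 + z) (ω p)‖ ^ 2 := by
      rw [MM_add_RR hI, ← Finset.prod_pow, ← Finset.prod_mul_distrib]
      refine Finset.prod_congr rfl fun p _ => ?_
      rw [norm_mul, mul_pow, Complex.norm_real, Real.norm_eq_abs, sq_abs]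
    rw [e]
    set b := ∏ p ∈ I, ‖Lp p (1 + z) (ω p)‖ ^ 2 with hb
    have hb0 : 0 ≤ b := Finset.prod_nonneg fun _ _ => by positivity
    have h3 : MM I l z₀ ω ^ 2 ≤ (1 + s) * (MM I l z₀ ω + RR I l z₀ ω) ^ 2 +
        (1 + s⁻¹) * RR I l z₀ ω ^ 2 := by
      set m := MM I l z₀ ω
      set r := RR I l z₀ ω
      have h0 : 0 ≤ (s * (m + r) + r) ^ 2 * s⁻¹ := by positivity
      have h4 : (s * (m + r) + r) ^ 2 * s⁻¹ = s * (m + r) ^ 2 + 2 * (m + r) * r + s⁻¹ * r ^ 2 := by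
        field_simp
        ring
      nlinarith
    calc MM I l z₀ ω ^ 2 * b ≤ ((1 + s) * (MM I l z₀ ω + RR I l z₀ ω) ^ 2 +
          (1 + s⁻¹) * RR I l z₀ ω ^ 2) * b := by gcongr
      _ = _ := by ring
  refine h1.trans ?_
  rw [EE_add, EE_mul_left, EE_mul_left,
    EE_prod I (fun p x => ‖(Np p z₀ x : ℂ) * Lp p (1 + z) x‖ ^ 2)]
  have h2 : ∏ p ∈ I, E1 p (fun x => ‖(Np p z₀ x : ℂ) * Lp p (1 + z) x‖ ^ 2) ≤ W := by
    refine Finset.prod_le_prod (fun p hp => ?_) fun p hp => E1_ratio hc (hI p hp) (hI3 p hp) hz hz₀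
    have := E1_mono (hS p hp) (G := fun _ => 0)
      (H := fun x => ‖(Np p z₀ x : ℂ) * Lp p (1 + z) x‖ ^ 2) (fun x _ => by positivity)
    rwa [E1_const] at this
  have h3 := EE_RL hI hI3 hc l (η := 1) (z₀ := z₀) one_pos le_rfl (fun p hp =>
    Real.rpow_le_one_of_one_le_of_nonpos (by exact_mod_cast hS p hp) (by linarith)) hz
  have h4 : ((1 : ℝ) / 3) ^ (2 * l) = s ^ 2 := by rw [hs, ← pow_mul]; congr 1; ring
  rw [h4] at h3
  have hP := one_le_PP I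
  calc (1 + s) * ∏ p ∈ I, E1 p (fun x => ‖(Np p z₀ x : ℂ) * Lp p (1 + z) x‖ ^ 2) +
        (1 + s⁻¹) * EE I (fun ω => RR I l z₀ ω ^ 2 * ∏ p ∈ I, ‖Lp p (1 + z) (ω p)‖ ^ 2)
      ≤ (1 + s) * W + (1 + s⁻¹) * (s ^ 2 * PP I) := by gcongr
    _ = (1 + s) * W + (s + 1) * s * PP I := by field_simp
    _ ≤ (1 + 3 * PP I * s) * W := by
        have a1 : s * W ≤ PP I * s * W := by nlinarith [mul_pos hs0 (by linarith : (0:ℝ) < W)]
        have a2 : (s + 1) * s * PP I ≤ 2 * PP I * s * W := by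
          have : (s + 1) * s * PP I ≤ 2 * s * PP I := by gcongr; linarith
          have h5 : 0 ≤ 2 * s * PP I := by positivity
          nlinarith
        nlinarith
    _ ≤ Real.exp (3 * PP I * s) * Real.exp (∑ p ∈ I, 6000 * (‖tt p z - tt p z₀‖ *
          (p : ℝ) ^ (-(1 / 2) : ℝ))) := by
        gcongr
        · linarith [Real.add_one_le_exp (3 * PP I * s)]
        · rw [hW, Real.exp_sum]
          refine Finset.prod_le_prod (fun p _ => by positivity) fun p _ => ?_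
          linarith [Real.add_one_le_exp (6000 * (‖tt p z - tt p z₀‖ * (p : ℝ) ^ (-(1 / 2) : ℝ)))]
    _ = _ := by rw [← Real.exp_add]

end

end P004G.H293
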